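import Vale.Agent.P184.PN.RelHyp
import Vale.Agent.P184.PN.Nil2
import Vale.Agent.P184.PN.ConjEuler

namespace Vale.Agent.Results.P184.A00000_Euler

open Vale.Agent.P184
open scoped Pointwise

universe u v

theorem result {G : Type u} [Group G] :
    (∀ x : G, ConjEuler x → Van x) ∧
    (Tame G → (∀ g : G, ¬ IsOfFinOrder g → Van g) ∧ (FinTor G → Q1 G)) ∧
    (∀ (X : Type v) [PseudoMetricSpace X] [MulAction G X] (𝓑 : Set (Set X)) (δ μ σ κ R₀ : ℝ)
      (x₀ : X), CuspUniform G X 𝓑 δ μ σ κ R₀ x₀ →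
      (∀ B ∈ 𝓑, Tame (MulAction.stabilizer G B)) →
      (∀ g : G, ¬ IsOfFinOrder g → Van g) ∧
        ((∀ B ∈ 𝓑, FinTor (MulAction.stabilizer G B)) → Q1 G)) ∧
    (Group.FG G → (∀ x y z : G, (x * y * x⁻¹ * y⁻¹) * z = z * (x * y * x⁻¹ * y⁻¹)) →
      FinTor G) := by
  have key : ∀ (P : Type u) [Group P], Tame P → AllPolyNil P := by
    intro P _ h
    rcases h with h | h
    · exact fun x hx => (h x hx).polyNil
    · have := h.1
      exact allPolyNil_of_central_commutators h.2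
  refine ⟨fun x h => h.polyNil.van, fun h => ?_, ?_, ?_⟩
  · exact ⟨fun g hg => (key G h g hg).van, fun hf => AllPolyNil.Q1 (key G h) hf⟩
  · intro X _ _ 𝓑 δ μ σ κ R₀ x₀ hC h
    have hA : AllPolyNil G := hC.allPolyNil fun B hB => key _ (h B hB)
    exact ⟨fun g hg => (hA g hg).van, fun hf => AllPolyNil.Q1 hA (hC.finTor hf)⟩
  · intro hfg hP
    have := hfg
    exact finTor_of_central_commutators hP

end Vale.Agent.Results.P184.A00000_Euler
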