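import Vale.Agent.P184.PN.VUniApps

namespace Vale.Agent.Results.P184.A0000_VirtUnipotent

open Vale.Agent.P184
open scoped Pointwise

universe u v

theorem result {G : Type u} [Group G] :
    (∀ g : G, PolyNil g → Van g) ∧
    (AllPolyNil G → FinTor G → Q1 G) ∧
    (∀ g : G, VUniAt g → PolyNil g ∧ ¬ IsOfFinOrder g) ∧
    (VUniDet G → FinTor G → Q1 G) ∧
    ((∀ g : G, g ≠ 1 → VUniAt g) → Q1 G) ∧
    (∀ (H : Subgroup G) (n : ℕ) (ρ : H →* Matrix (Fin n) (Fin n) ℝ), H.FiniteIndex →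
      (∀ h i j, j < i → ρ h i j = 0) → (∀ h i, ρ h i i = 1) → Function.Injective ρ → VUniDet G) ∧
    (∀ (X : Type v) [PseudoMetricSpace X] [MulAction G X] (𝓑 : Set (Set X)) (δ μ σ κ R₀ : ℝ)
      (x₀ : X), CuspUniform G X 𝓑 δ μ σ κ R₀ x₀ →
      ((∀ B ∈ 𝓑, AllPolyNil (MulAction.stabilizer G B)) → AllPolyNil G) ∧
      ((∀ B ∈ 𝓑, FinTor (MulAction.stabilizer G B)) → FinTor G) ∧
      ((∀ B ∈ 𝓑, VUniDet (MulAction.stabilizer G B)) → ∀ g : G, ¬ IsOfFinOrder g → Van g) ∧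
      ((∀ B ∈ 𝓑, (VUniDet (MulAction.stabilizer G B) ∧ FinTor (MulAction.stabilizer G B)) ∨
        (Group.FG (MulAction.stabilizer G B) ∧
          ∀ x y z : MulAction.stabilizer G B,
            (x * y * x⁻¹ * y⁻¹) * z = z * (x * y * x⁻¹ * y⁻¹))) → Q1 G)) := by
  refine ⟨fun g h => h.van, fun h hf => h.Q1 hf, fun g h => ⟨h.polyNil, h.not_isOfFinOrder⟩,
    fun h hf => h.allPolyNil.Q1 hf, q1_of_all_vUniAt,
    fun H n ρ hH hlow hdiag hinj => vUniDet_of_embedding H n ρ hH hlow hdiag hinj, ?_⟩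
  intro X _ _ 𝓑 δ μ σ κ R₀ x₀ hC
  refine ⟨hC.allPolyNil, hC.finTor, fun h g hg => ?_, fun h => ?_⟩
  · exact ((hC.allPolyNil fun B hB => (h B hB).allPolyNil) g hg).van
  · refine AllPolyNil.Q1 (hC.allPolyNil fun B hB => ?_) (hC.finTor fun B hB => ?_)
    · rcases h B hB with h1 | h1
      · exact h1.1.allPolyNil
      · have := h1.1
        exact allPolyNil_of_central_commutators h1.2
    · rcases h B hB with h1 | h1
      · exact h1.2
      · have := h1.1
        exact finTor_of_central_commutators h1.2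

end Vale.Agent.Results.P184.A0000_VirtUnipotent
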