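import Vale.Agent.P184.CentHom
import Vale.Agent.P184.RFRS
import Vale.Agent.P184.Walls
import Vale.Agent.P184.CatZero
import Vale.Agent.P184.LinearAll
import Vale.Agent.P184.HypGroup
import Vale.Agent.P184.Closure
import Vale.Agent.P184.DefsGeom

namespace Vale.Agent.Results.P184.A0_Main

open Vale.Agent.P184
open scoped Pointwise

universe u v

theorem result {G : Type u} [Group G] :
    (∀ (g : G) (l : G → ℝ) (φ : Subgroup.centralizer ({g} : Set G) →* Multiplicative ℝ),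
      (∀ x y, l (x * y) ≤ l x + l y) →
      (∀ z : Subgroup.centralizer ({g} : Set G), Multiplicative.toAdd (φ z) ≤ l (z : G)) →
      (∀ z : Subgroup.centralizer ({g} : Set G), (z : G) = g → φ z ≠ 1) → Van g) ∧
    (∀ (g : G) (l : G → ℝ) (ε : ℝ),
      (∀ x y, l (x * y) ≤ l x + l y) → 0 < ε → (∀ n : ℕ, ε * n ≤ l (g ^ n)) →
      Amenable (Subgroup.centralizer ({g} : Set G)) → Van g) ∧
    (∀ (g : G) (V : Type v) [Group V] (π : G →* V) (A : Subgroup V),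
      A.FiniteIndex → (∀ a ∈ A, ∀ b ∈ A, a * b = b * a) → ¬ IsOfFinOrder (π g) → Van g) ∧
    (∀ (g : G) (X : Type v) [PseudoMetricSpace X] [MulAction G X] [Nonempty X] (ε : ℝ),
      Isom G X → CN X → 0 < ε → (∀ x : X, ε ≤ dist x (g • x)) → Van g) ∧
    (∀ (g : G) (X : Type v) [MulAction G X] (W : Set (Set X)) (k : ℕ) (h₀ : Set X),
      (∀ (a : G), ∀ h ∈ W, a • h ∈ W) →
      (∀ p p' : X, {h ∈ W | p ∈ h ∧ p' ∉ h}.Finite) →
      h₀ ∈ W → g ^ k • h₀ ⊂ h₀ → Van g) ∧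
    (∀ (g : G) (K : Type v) [Field K] (n : ℕ) (ρ : G →* GL (Fin n) K),
      (∀ N : ℕ, 0 < N →
        ¬ IsNilpotent (((ρ g : GL (Fin n) K) : Matrix (Fin n) (Fin n) K) ^ N - 1)) → Van g) ∧
    (∀ (g : G) (p : ℕ) [Fact p.Prime] (K : Type v) [Field K] [CharP K p] (n : ℕ)
      (ρ : G →* GL (Fin n) K), ¬ IsOfFinOrder (ρ g) → Van g) ∧
    (∀ (g : G) (X : Type v) [PseudoMetricSpace X] [MulAction G X] (ε : ℝ) (x₀ : X),
      Isom G X → Hyp4 X → 0 < ε → (∀ n : ℕ, ε * n ≤ dist x₀ (g ^ n • x₀)) →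
      (∀ R : ℝ, {s : G | s * g = g * s ∧ dist x₀ (s • x₀) ≤ R}.Finite) → Van g) ∧
    (∀ (g : G) (X : Type v) [PseudoMetricSpace X] [MulAction G X] (x₀ : X),
      Isom G X → Hyp4 X → Mid X →
      (∀ R : ℝ, ∃ (L : ℝ) (N₀ : ℕ), ∀ x y : X, L ≤ dist x y →
        {s : G | dist x (s • x) ≤ R ∧ dist y (s • y) ≤ R}.Finite ∧
        {s : G | dist x (s • x) ≤ R ∧ dist y (s • y) ≤ R}.ncard ≤ N₀) →
      (∀ R : ℝ, ∃ n : ℕ, R < dist x₀ (g ^ n • x₀)) → Van g) ∧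
    (∀ (g : G) (H : Subgroup G), H.FiniteIndex → IsRFRS H → ¬ IsOfFinOrder g → Van g) ∧
    (IsRFRS G → Q1 G) ∧
    (∀ (X : Type v) [PseudoMetricSpace X] [MulAction G X], Geom G X → CN X → Q1 G) ∧
    (∀ (X : Type v) [PseudoMetricSpace X] [MulAction G X], Geom G X → Hyp4 X → Mid X → Q1 G) ∧
    (∀ (ι : Type v) [Preorder ι] [IsDirected ι (· ≤ ·)] [Nonempty ι] (Gs : ι → Type v)
      [∀ i, Group (Gs i)] (f : ∀ i j, i ≤ j → Gs i →* Gs j) (φ : ∀ i, Gs i →* G),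
      (∀ i j k (hij : i ≤ j) (hjk : j ≤ k) (x : Gs i),
        f j k hjk (f i j hij x) = f i k (hij.trans hjk) x) →
      (∀ i j (h : i ≤ j) (x : Gs i), φ j (f i j h x) = φ i x) →
      (∀ y : G, ∃ i, ∃ x : Gs i, φ i x = y) →
      (∀ i (x y : Gs i), φ i x = φ i y → ∃ j, ∃ h : i ≤ j, f i j h x = f i j h y) →
      (∀ i, Q1 (Gs i)) → Q1 G) ∧
    (∀ (ι : Type v) [Finite ι] (M : ι → Type v) [∀ i, Group (M i)]
      (_ : Monoid.CoprodI M ≃* G), (∀ i, Q1 (M i)) → Q1 G) := by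
  refine ⟨?_, ?_, ?_, ?_, ?_, ?_, ?_, ?_, ?_, ?_, ?_, ?_, ?_, ?_, ?_⟩
  · intro g l φ hl hφ hg q e he
    exact centralizer_hom_criterion he l hl g φ hφ hg
  · intro g l ε hl hε hund ham q e he
    exact amenable_centralizer_criterion he l hl g ε hε hund ham
  · intro g V _ π A hA hab hg q e he
    exact virtually_abelian_criterion he π A hab g hg
  · intro g X _ _ hne ε hiso hCN hε hdisp q e he
    obtain ⟨x₀⟩ := hne
    exact CN_criterion he hiso hCN g ε hε hdisp x₀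
  · intro g X _ W k h₀ hinv hfin hh₀ hsk q e he
    exact wall_criterion he W hinv hfin g k h₀ hh₀ hsk
  · intro g K _ n ρ hg q e he
    exact linear_all he ρ g hg
  · intro g p _ K _ _ n ρ hg q e he
    exact charP_criterion he p ρ g hg
  · intro g X _ _ ε x₀ hiso ⟨δ, h4⟩ hε hlox hprop q e he
    exact lox_criterion he hiso h4 g x₀ ε hε hlox hprop
  · intro g X _ _ x₀ hiso ⟨δ, h4⟩ ⟨μ, hmid⟩ hacyl hunb q e he
    exact acyl_unbounded he hiso h4 μ hmid hacyl g x₀ hunb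
  · intro g H hH hR hg q e he
    exact virtually_rfrs he H hR g hg
  · intro hG q e he
    exact finset_form (fun C hC => rfrs_bass hG he C hC)
  · intro X _ _ ⟨hiso, x₀, R₀, hprop, hcob⟩ hCN q e he
    exact CN_group he hiso hCN x₀ hprop R₀ hcob
  · intro X _ _ ⟨hiso, x₀, R₀, hprop, hcob⟩ ⟨δ, h4⟩ ⟨μ, hmid⟩ q e he
    exact hyp_group he hiso h4 μ hmid x₀ hprop R₀ hcob
  · intro ι _ _ _ Gs _ f φ hfun hcomp hsurj hinj hQ
    exact Q1_of_directed_colimit f φ hfun hcomp hsurj hinj hQ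
  · intro ι _ M _ Φ hQ
    exact Q1_of_mulEquiv Φ (Q1_coprodI hQ)

end Vale.Agent.Results.P184.A0_Main
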