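import Vale.Agent.P184.HH.Members
import Vale.Agent.P184.HH.CentHom

namespace Vale.Agent.Results.P184.A1_RelHyp

open Vale.Agent.P184
open scoped Pointwise

universe u v w

theorem result {G : Type u} [Group G] {X : Type v} [PseudoMetricSpace X] [MulAction G X]
    (𝓑 : Set (Set X)) (δ μ σ κ R₀ : ℝ) (x₀ : X) (hC : CuspUniform G X 𝓑 δ μ σ κ R₀ x₀) :
    ((∀ B ∈ 𝓑, AllHeight (MulAction.stabilizer G B)) → ∀ g : G, ¬ IsOfFinOrder g → Van g) ∧
    ((∀ B ∈ 𝓑, AllHeight (MulAction.stabilizer G B) ∧ FinTor (MulAction.stabilizer G B)) →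
      Q1 G) ∧
    ((∀ B ∈ 𝓑, ∃ A : Subgroup (MulAction.stabilizer G B), A.FiniteIndex ∧
      ∀ a ∈ A, ∀ b ∈ A, a * b = b * a) → ∀ g : G, ¬ IsOfFinOrder g → Van g) ∧
    ((∀ B ∈ 𝓑, FinTor (MulAction.stabilizer G B) ∧
      ∃ A : Subgroup (MulAction.stabilizer G B), A.FiniteIndex ∧
        ∀ a ∈ A, ∀ b ∈ A, a * b = b * a) → Q1 G) ∧
    (∀ (P : Type w) [Group P] (h : P) (l : P → ℝ), (∀ x y, l (x * y) ≤ l x + l y) →
      ((∃ φ : Subgroup.centralizer ({h} : Set P) →* Multiplicative ℝ,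
        (∀ z, Multiplicative.toAdd (φ z) ≤ l (z : P)) ∧
        ∀ z : Subgroup.centralizer ({h} : Set P), (z : P) = h → φ z ≠ 1) ∨
       (Amenable (Subgroup.centralizer ({h} : Set P)) ∧
        ∃ ε : ℝ, 0 < ε ∧ ∀ n : ℕ, ε * n ≤ l (h ^ n))) → HasHeight h) := by
  have hva : (∀ B ∈ 𝓑, ∃ A : Subgroup (MulAction.stabilizer G B), A.FiniteIndex ∧
      ∀ a ∈ A, ∀ b ∈ A, a * b = b * a) → ∀ B ∈ 𝓑, AllHeight (MulAction.stabilizer G B) := by
    intro h B hB
    obtain ⟨A, hA, hab⟩ := h B hB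
    exact allHeight_of_virtually_abelian A hab
  refine ⟨?_, ?_, ?_, ?_, ?_⟩
  · exact fun h => (hC.allHeight h).van
  · exact fun h => (hC.allHeight (fun B hB => (h B hB).1)).Q1 (hC.finTor (fun B hB => (h B hB).2))
  · exact fun h => (hC.allHeight (hva h)).van
  · exact fun h => (hC.allHeight (hva (fun B hB => (h B hB).2))).Q1
      (hC.finTor (fun B hB => (h B hB).1))
  · intro P _ h l hl hor
    rcases hor with ⟨φ, hφ, hg⟩ | ⟨ham, ε, hε, hund⟩
    · exact HH.centralizer_hom_criterion l hl h φ hφ hg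
    · exact HH.amenable_centralizer_criterion l hl h ε hε hund ham

end Vale.Agent.Results.P184.A1_RelHyp
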