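import Vale.Agent.P184.HypGroup
import Vale.Agent.P184.FreeProdInf
import Vale.Agent.P184.DefsGeom

namespace Vale.Agent.Results.P184.A2_Colimits

open Vale.Agent.P184

universe u v

theorem result {G : Type u} [Group G] :
    (∀ (X : Type v) [PseudoMetricSpace X] [MulAction G X], Geom G X → Hyp4 X → Mid X → Q1 G) ∧
    (∀ (ι : Type v) [Preorder ι] [IsDirected ι (· ≤ ·)] [Nonempty ι] (Gs : ι → Type v)
      [∀ i, Group (Gs i)] (f : ∀ i j, i ≤ j → Gs i →* Gs j) (φ : ∀ i, Gs i →* G),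
      (∀ i j k (hij : i ≤ j) (hjk : j ≤ k) (x : Gs i),
        f j k hjk (f i j hij x) = f i k (hij.trans hjk) x) →
      (∀ i j (h : i ≤ j) (x : Gs i), φ j (f i j h x) = φ i x) →
      (∀ y : G, ∃ i, ∃ x : Gs i, φ i x = y) →
      (∀ i (x y : Gs i), φ i x = φ i y → ∃ j, ∃ h : i ≤ j, f i j h x = f i j h y) →
      ((∀ i, Q1 (Gs i)) → Q1 G) ∧
      ((∀ i, ∃ (X : Type v) (_ : PseudoMetricSpace X) (_ : MulAction (Gs i) X),
        Geom (Gs i) X ∧ Hyp4 X ∧ Mid X) → Q1 G)) ∧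
    (∀ (ι : Type v) (M : ι → Type v) [∀ i, Group (M i)] (_ : Monoid.CoprodI M ≃* G),
      (∀ i, Q1 (M i)) → Q1 G) := by
  have hyp : ∀ (H : Type v) [Group H] (X : Type v) [PseudoMetricSpace X] [MulAction H X],
      Geom H X → Hyp4 X → Mid X → Q1 H := by
    intro H _ X _ _ ⟨hiso, x₀, R₀, hprop, hcob⟩ ⟨δ, h4⟩ ⟨μ, hmid⟩ q e he
    exact hyp_group he hiso h4 μ hmid x₀ hprop R₀ hcob
  refine ⟨?_, ?_, ?_⟩
  · intro X _ _ ⟨hiso, x₀, R₀, hprop, hcob⟩ ⟨δ, h4⟩ ⟨μ, hmid⟩ q e he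
    exact hyp_group he hiso h4 μ hmid x₀ hprop R₀ hcob
  · intro ι _ _ _ Gs _ f φ hfun hcomp hsurj hinj
    refine ⟨fun hQ => Q1_of_directed_colimit f φ hfun hcomp hsurj hinj hQ, fun hH => ?_⟩
    refine Q1_of_directed_colimit f φ hfun hcomp hsurj hinj (fun i => ?_)
    obtain ⟨X, _, _, hg, h4, hm⟩ := hH i
    exact hyp (Gs i) X hg h4 hm
  · intro ι M _ Φ hQ
    exact Q1_of_mulEquiv Φ (Q1_coprodI_all hQ)

end Vale.Agent.Results.P184.A2_Colimits
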