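import Vale.Agent.P184.CatZero

namespace Vale.Agent.Results.P184.CatZero

open Vale.Agent.P184

universe u v

theorem result {G : Type u} [Group G] (q : ℕ) (e : Fin q → Fin q → G → ℂ) (he : IsIdem e)
    (X : Type v) [PseudoMetricSpace X] [MulAction G X]
    (hiso : ∀ (a : G) (x y : X), dist (a • x) (a • y) = dist x y) :
    ((∀ r δ : ℝ, 0 < δ → ∃ R : ℝ, ∀ x₁ x₂ y₁ y₂ : X, dist x₁ x₂ + dist y₁ y₂ ≤ r →
        R ≤ dist x₁ y₁ + dist x₂ y₂ →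
        dist x₁ y₂ + dist x₂ y₁ ≤ dist x₁ y₁ + dist x₂ y₂ + δ) →
      ∀ (g : G) (x₀ : X) (ε : ℝ), 0 < ε → (∀ n : ℕ, ε * n ≤ dist x₀ (g ^ n • x₀)) →
        hs e (ConjClasses.mk g) = 0) ∧
    ((∀ a b c d : X, dist a c ^ 2 + dist b d ^ 2 ≤
        dist a b ^ 2 + dist b c ^ 2 + dist c d ^ 2 + dist d a ^ 2) →
      ∀ (g : G) (x₀ : X) (ε : ℝ), 0 < ε → (∀ n : ℕ, ε * n ≤ dist x₀ (g ^ n • x₀)) →
        hs e (ConjClasses.mk g) = 0) ∧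
    ((∀ x y : X, ∃ m : X, ∀ z : X,
        dist z m ^ 2 ≤ (dist z x ^ 2 + dist z y ^ 2) / 2 - dist x y ^ 2 / 4) →
      (∀ (g : G) (ε : ℝ), Nonempty X → 0 < ε → (∀ x : X, ε ≤ dist x (g • x)) →
        hs e (ConjClasses.mk g) = 0) ∧
      (∀ (x₀ : X) (R₀ : ℝ), (∀ R : ℝ, {s : G | dist x₀ (s • x₀) ≤ R}.Finite) →
        (∀ y : X, ∃ s : G, dist y (s • x₀) ≤ R₀) →
        ∃ F : Finset (ConjClasses G), (∀ C ∈ F, ∀ g ∈ C.carrier, IsOfFinOrder g) ∧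
          ∀ C, C ∉ F → hs e C = 0)) := by
  refine ⟨?_, ?_, ?_⟩
  · intro hB g x₀ ε hε hlin
    exact bolic_criterion he hiso hB g x₀ ε hε hlin
  · intro hQ g x₀ ε hε hlin
    exact bolic_criterion he hiso (bolic_of_round hQ) g x₀ ε hε hlin
  · intro hCN
    refine ⟨?_, ?_⟩
    · intro g ε hne hε hdisp
      obtain ⟨x₀⟩ := hne
      exact CN_criterion he hiso hCN g ε hε hdisp x₀
    · intro x₀ R₀ hprop hcob
      exact CN_group he hiso hCN x₀ hprop R₀ hcob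

end Vale.Agent.Results.P184.CatZero
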