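import Vale.Agent.P184.HypGroup

namespace Vale.Agent.Results.P184.Hyperbolic

open Vale.Agent.P184

universe u v

theorem result {G : Type u} [Group G] (q : ℕ) (e : Fin q → Fin q → G → ℂ) (he : IsIdem e)
    (X : Type v) [PseudoMetricSpace X] [MulAction G X] (δ : ℝ)
    (hiso : ∀ (a : G) (x y : X), dist (a • x) (a • y) = dist x y)
    (hyp : ∀ x y z w : X,
      dist x y + dist z w ≤ max (dist x z + dist y w) (dist x w + dist y z) + 2 * δ) :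
    (∀ (g : G) (x₀ : X) (ε : ℝ), 0 < ε → (∀ n : ℕ, ε * n ≤ dist x₀ (g ^ n • x₀)) →
      (∀ R : ℝ, {s : G | s * g = g * s ∧ dist x₀ (s • x₀) ≤ R}.Finite) →
      hs e (ConjClasses.mk g) = 0) ∧
    (∀ (g : G) (x₀ : X) (ε : ℝ), 0 < ε → (∀ n : ℕ, ε * n ≤ dist x₀ (g ^ n • x₀)) →
      (∀ R : ℝ, ∃ M : ℕ,
        {s : G | dist x₀ (s • x₀) ≤ R ∧ dist (g ^ M • x₀) (s • g ^ M • x₀) ≤ R}.Finite) →
      hs e (ConjClasses.mk g) = 0) ∧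
    (∀ (μ : ℝ) (g : G) (x₀ : X),
      (∀ x y : X, ∃ m : X, dist x m ≤ dist x y / 2 + μ ∧ dist y m ≤ dist x y / 2 + μ) →
      (∀ R : ℝ, ∃ (L : ℝ) (N₀ : ℕ), ∀ x y : X, L ≤ dist x y →
        {s : G | dist x (s • x) ≤ R ∧ dist y (s • y) ≤ R}.Finite ∧
        {s : G | dist x (s • x) ≤ R ∧ dist y (s • y) ≤ R}.ncard ≤ N₀) →
      (∀ R : ℝ, ∃ n : ℕ, R < dist x₀ (g ^ n • x₀)) →
      hs e (ConjClasses.mk g) = 0) ∧
    (∀ (μ : ℝ) (x₀ : X) (R₀ : ℝ),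
      (∀ x y : X, ∃ m : X, dist x m ≤ dist x y / 2 + μ ∧ dist y m ≤ dist x y / 2 + μ) →
      (∀ R : ℝ, {s : G | dist x₀ (s • x₀) ≤ R}.Finite) →
      (∀ y : X, ∃ s : G, dist y (s • x₀) ≤ R₀) →
      ∃ F : Finset (ConjClasses G), (∀ C ∈ F, ∀ g ∈ C.carrier, IsOfFinOrder g) ∧
        ∀ C, C ∉ F → hs e C = 0) :=
  ⟨fun g x₀ ε hε hlox h => lox_criterion he hiso hyp g x₀ ε hε hlox h,
   fun g x₀ ε hε hlox h => wpd_criterion he hiso hyp g x₀ ε hε hlox h,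
   fun μ g x₀ hmid hacyl hunb => acyl_unbounded he hiso hyp μ hmid hacyl g x₀ hunb,
   fun μ x₀ R₀ hmid hprop hcob => hyp_group he hiso hyp μ hmid x₀ hprop R₀ hcob⟩

end Vale.Agent.Results.P184.Hyperbolic
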