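import Vale.Agent.P184.LinearAll

namespace Vale.Agent.Results.P184.LinearGroups

open Vale.Agent.P184

universe u v

theorem result {G : Type u} [Group G] (q : ℕ) (e : Fin q → Fin q → G → ℂ) (he : IsIdem e) :
    (∀ (K : Type v) [Field K] (n : ℕ) (ρ : G →* GL (Fin n) K) (g : G),
      (∀ N : ℕ, 0 < N →
        ¬ IsNilpotent (((ρ g : GL (Fin n) K) : Matrix (Fin n) (Fin n) K) ^ N - 1)) →
      hs e (ConjClasses.mk g) = 0) ∧
    (∀ (p : ℕ) [Fact p.Prime] (K : Type v) [Field K] [CharP K p] (n : ℕ)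
      (ρ : G →* GL (Fin n) K) (g : G),
      ¬ IsOfFinOrder (ρ g) → hs e (ConjClasses.mk g) = 0) ∧
    (∀ (p : ℕ) [Fact p.Prime] (K : Type v) [Field K] [CharP K p] (n : ℕ)
      (ρ : G →* GL (Fin n) K),
      Function.Injective ρ →
      {C : ConjClasses G | ∀ g ∈ C.carrier, IsOfFinOrder g}.Finite →
      ∃ F : Finset (ConjClasses G), (∀ C ∈ F, ∀ g ∈ C.carrier, IsOfFinOrder g) ∧
        ∀ C, C ∉ F → hs e C = 0) := by
  refine ⟨?_, ?_, ?_⟩
  · intro K _ n ρ g hg
    exact linear_all he ρ g hg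
  · intro p _ K _ _ n ρ g hg
    exact charP_criterion he p ρ g hg
  · intro p _ K _ _ n ρ hinj hfin
    exact charP_full he p ρ hinj hfin

end Vale.Agent.Results.P184.LinearGroups
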