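import Vale.Agent.P184.CentHom
import Vale.Agent.P184.RFRS

namespace Vale.Agent.Results.P184.VirtAbRFRS

open Vale.Agent.P184

universe u v

theorem result {G : Type u} [Group G] (q : ℕ) (e : Fin q → Fin q → G → ℂ) (he : IsIdem e) :
    (∀ (g : G) (V : Type v) [Group V] (π : G →* V) (A : Subgroup V),
      A.FiniteIndex → (∀ a ∈ A, ∀ b ∈ A, a * b = b * a) → ¬ IsOfFinOrder (π g) →
      hs e (ConjClasses.mk g) = 0) ∧
    (∀ H : Subgroup G, H.FiniteIndex → IsRFRS H → ∀ g : G, ¬ IsOfFinOrder g →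
      hs e (ConjClasses.mk g) = 0) ∧
    (IsRFRS G → ∃ F : Finset (ConjClasses G), (∀ C ∈ F, ∀ g ∈ C.carrier, IsOfFinOrder g) ∧
      ∀ C, C ∉ F → hs e C = 0) := by
  refine ⟨?_, ?_, ?_⟩
  · intro g V _ π A hA hab hg
    exact virtually_abelian_criterion he π A hab g hg
  · intro H hH hR g hg
    exact virtually_rfrs he H hR g hg
  · intro hG
    exact finset_form (fun C hC => rfrs_bass hG he C hC)

end Vale.Agent.Results.P184.VirtAbRFRS
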