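import Vale.Agent.P184.PN.RelHyp
import Vale.Agent.P184.PN.Nil2

namespace Vale.Agent.Results.P184.Z1_Periodicity

open Vale.Agent.P184
open scoped Pointwise

universe u v

theorem result {G : Type u} [Group G] :
    (∀ g : G, PolyNil g → Van g) ∧
    (AllPolyNil G → FinTor G → Q1 G) ∧
    (∀ (X : Type v) [PseudoMetricSpace X] [MulAction G X] (𝓑 : Set (Set X)) (δ μ σ κ R₀ : ℝ)
      (x₀ : X), CuspUniform G X 𝓑 δ μ σ κ R₀ x₀ →
      ((∀ B ∈ 𝓑, AllPolyNil (MulAction.stabilizer G B)) → AllPolyNil G) ∧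
      ((∀ B ∈ 𝓑, FinTor (MulAction.stabilizer G B)) → FinTor G) ∧
      ((∀ B ∈ 𝓑, AllPolyNil (MulAction.stabilizer G B) ∧ FinTor (MulAction.stabilizer G B)) →
        Q1 G)) ∧
    (Group.FG G → (∀ x y z : G, (x * y * x⁻¹ * y⁻¹) * z = z * (x * y * x⁻¹ * y⁻¹)) →
      AllPolyNil G ∧ FinTor G) := by
  refine ⟨fun g h => h.van, fun h hf => h.Q1 hf, ?_, ?_⟩
  · intro X _ _ 𝓑 δ μ σ κ R₀ x₀ hC
    exact ⟨hC.allPolyNil, hC.finTor, fun h =>
      AllPolyNil.Q1 (hC.allPolyNil fun B hB => (h B hB).1) (hC.finTor fun B hB => (h B hB).2)⟩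
  · intro hfg hP
    have := hfg
    exact ⟨allPolyNil_of_central_commutators hP, finTor_of_central_commutators hP⟩

end Vale.Agent.Results.P184.Z1_Periodicity
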