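import Vale.Agent.P184.PN.RelHyp
import Vale.Agent.P184.PN.Nil2
import Vale.Agent.P184.PN.Pcb

namespace Vale.Agent.Results.P184.Z3_Nil2

open Vale.Agent.P184
open scoped Pointwise

universe u v

theorem result {G : Type u} [Group G] :
    (∀ g : G, PolyNil g → Van g) ∧
    (AllPolyNil G → FinTor G → Q1 G) ∧
    (∀ (X : Type v) [PseudoMetricSpace X] [MulAction G X] (𝓑 : Set (Set X)) (δ μ σ κ R₀ : ℝ)
      (x₀ : X), CuspUniform G X 𝓑 δ μ σ κ R₀ x₀ →
      ((∀ B ∈ 𝓑, AllPolyNil (MulAction.stabilizer G B)) → AllPolyNil G) ∧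
      ((∀ B ∈ 𝓑, FinTor (MulAction.stabilizer G B)) → FinTor G) ∧
      ((∀ B ∈ 𝓑, Group.FG (MulAction.stabilizer G B) ∧
        ∀ x y z : MulAction.stabilizer G B,
          (x * y * x⁻¹ * y⁻¹) * z = z * (x * y * x⁻¹ * y⁻¹)) → Q1 G)) ∧
    (Group.FG G → (∀ x y z : G, (x * y * x⁻¹ * y⁻¹) * z = z * (x * y * x⁻¹ * y⁻¹)) →
      AllPolyNil G ∧ FinTor G) ∧
    (∀ (x : G) (v : G → ℝ) (U : G → G) (K : ℝ) (r : ℕ), Gauge v →
      (∀ y, v y⁻¹ ≤ K * v y ^ r) →
      (∀ s, IsConj x s → U s * x * (U s)⁻¹ = s ∧ v (U s) ≤ K * v s ^ r) →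
      (∀ x' : Subgroup.centralizer ({x} : Set G), (x' : G) = x →
        PolyNilW (fun z : Subgroup.centralizer ({x} : Set G) => v z) x' → PolyNilW v x)) ∧
    (∀ (H : Type v) [Group H] (π : G →* H) (g : G), PolyNil (π g) → PolyNil g) ∧
    (∀ g : G, HasHeight g → PolyNil g) ∧
    (∀ (m : ℕ) (a b : Fin m → G → ℝ) (c : G → ℝ),
      (∀ i x y, a i (x * y) = a i x + a i y) → (∀ i x y, b i (x * y) = b i x + b i y) →
      (∀ x y, c (x * y) = c x + c y + ∑ i, a i x * b i y) →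
      ∀ p : G, (∃ i, a i p ≠ 0) ∨ (∃ i, b i p ≠ 0) ∨ c p ≠ 0 → PolyNil p) := by
  refine ⟨?_, ?_, ?_, ?_, ?_, ?_, ?_, ?_⟩
  · exact fun g h => h.van
  · exact fun h hf => h.Q1 hf
  · intro X _ _ 𝓑 δ μ σ κ R₀ x₀ hC
    refine ⟨hC.allPolyNil, hC.finTor, fun h => ?_⟩
    refine AllPolyNil.Q1 (hC.allPolyNil fun B hB => ?_) (hC.finTor fun B hB => ?_)
    · have := (h B hB).1
      exact allPolyNil_of_central_commutators (h B hB).2
    · have := (h B hB).1
      exact finTor_of_central_commutators (h B hB).2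
  · intro hfg hP
    have := hfg
    exact ⟨allPolyNil_of_central_commutators hP, finTor_of_central_commutators hP⟩
  · intro x v U K r hv hinv hU x' hx' H
    have : x' = ⟨x, Subgroup.mem_centralizer_singleton_iff.mpr rfl⟩ := Subtype.ext hx'
    subst this
    exact PolyNilW.of_centralizer hv U K r hinv hU H
  · intro H _ π g h
    exact PolyNil.comap π h
  · exact fun g h => h.polyNil
  · intro m a b c ha hb hc p hp
    exact polyNil_of_heisM_coords m a b c ha hb hc p hp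

end Vale.Agent.Results.P184.Z3_Nil2
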