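import Vale.Agent.P184.PN.RelHyp
import Vale.Agent.P184.PN.Nil2
import Vale.Agent.P184.PN.Uni

namespace Vale.Agent.Results.P184.Z4_Unipotent

open Vale.Agent.P184
open scoped Pointwise

universe u v

theorem result {G : Type u} [Group G] :
    (∀ g : G, PolyNil g → Van g) ∧
    (AllPolyNil G → FinTor G → Q1 G) ∧
    (∀ g : G, UniAt g → PolyNil g ∧ ¬ IsOfFinOrder g) ∧
    (UniDet G → FinTor G → Q1 G) ∧
    (ResUni G → UniDet G ∧ FinTor G) ∧
    (∀ (X : Type v) [PseudoMetricSpace X] [MulAction G X] (𝓑 : Set (Set X)) (δ μ σ κ R₀ : ℝ)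
      (x₀ : X), CuspUniform G X 𝓑 δ μ σ κ R₀ x₀ →
      ((∀ B ∈ 𝓑, AllPolyNil (MulAction.stabilizer G B)) → AllPolyNil G) ∧
      ((∀ B ∈ 𝓑, FinTor (MulAction.stabilizer G B)) → FinTor G) ∧
      ((∀ B ∈ 𝓑, UniDet (MulAction.stabilizer G B)) → ∀ g : G, ¬ IsOfFinOrder g → Van g) ∧
      ((∀ B ∈ 𝓑, (UniDet (MulAction.stabilizer G B) ∧ FinTor (MulAction.stabilizer G B)) ∨
        (Group.FG (MulAction.stabilizer G B) ∧
          ∀ x y z : MulAction.stabilizer G B,
            (x * y * x⁻¹ * y⁻¹) * z = z * (x * y * x⁻¹ * y⁻¹))) → Q1 G)) := by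
  refine ⟨fun g h => h.van, fun h hf => h.Q1 hf, fun g h => h.polyNil_and,
    fun h hf => h.allPolyNil.Q1 hf, fun h => h.uniDet_finTor, ?_⟩
  intro X _ _ 𝓑 δ μ σ κ R₀ x₀ hC
  refine ⟨hC.allPolyNil, hC.finTor, fun h g hg => ?_, fun h => ?_⟩
  · exact ((hC.allPolyNil fun B hB => (h B hB).allPolyNil) g hg).van
  · refine AllPolyNil.Q1 (hC.allPolyNil fun B hB => ?_) (hC.finTor fun B hB => ?_)
    · rcases h B hB with h1 | h1
      · exact h1.1.allPolyNil
      · have := h1.1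
        exact allPolyNil_of_central_commutators h1.2
    · rcases h B hB with h1 | h1
      · exact h1.2
      · have := h1.1
        exact finTor_of_central_commutators h1.2

end Vale.Agent.Results.P184.Z4_Unipotent
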