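import Vale.Agent.P184.HH.Members
import Vale.Agent.P184.HH.FiniteIndexUp
import Vale.Agent.P184.FreeProdInf
import Vale.Agent.P184.ProdClosure

namespace Vale.Agent.Results.P184.Z5_Classes

open Vale.Agent.P184
open scoped Pointwise

universe u v

theorem result {G : Type u} [Group G] :
    (AllHeight G → ∀ g : G, ¬ IsOfFinOrder g → Van g) ∧
    (AllHeight G → FinTor G → Q1 G) ∧
    ((∀ g : G, ¬ IsOfFinOrder g → ∃ (H : Type v) (_ : Group H) (π : G →* H),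
      AllHeight H ∧ ¬ IsOfFinOrder (π g)) → AllHeight G) ∧
    (∀ H : Subgroup G, H.FiniteIndex → AllHeight H → AllHeight G) ∧
    (∀ (ι : Type v) (M : ι → Type v) [∀ i, Group (M i)] (_ : Monoid.CoprodI M ≃* G),
      (∀ i, AllHeight (M i)) → AllHeight G) ∧
    (∀ (X : Type v) [PseudoMetricSpace X] [MulAction G X] (𝓑 : Set (Set X)) (δ μ σ κ R₀ : ℝ)
      (x₀ : X), CuspUniform G X 𝓑 δ μ σ κ R₀ x₀ →
      ((∀ B ∈ 𝓑, AllHeight (MulAction.stabilizer G B)) → AllHeight G) ∧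
      ((∀ B ∈ 𝓑, FinTor (MulAction.stabilizer G B)) → FinTor G)) ∧
    ((∀ a b : G, a * b = b * a) → AllHeight G) ∧
    (∀ (X : Type v) [PseudoMetricSpace X] [MulAction G X], Geom G X → CN X →
      AllHeight G ∧ FinTor G) ∧
    (∀ (ι : Type v) [Preorder ι] [IsDirected ι (· ≤ ·)] [Nonempty ι] (Gs : ι → Type v)
      [∀ i, Group (Gs i)] (f : ∀ i j, i ≤ j → Gs i →* Gs j) (φ : ∀ i, Gs i →* G),
      (∀ i j k (hij : i ≤ j) (hjk : j ≤ k) (x : Gs i),
        f j k hjk (f i j hij x) = f i k (hij.trans hjk) x) →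
      (∀ i j (h : i ≤ j) (x : Gs i), φ j (f i j h x) = φ i x) →
      (∀ y : G, ∃ i, ∃ x : Gs i, φ i x = y) →
      (∀ i (x y : Gs i), φ i x = φ i y → ∃ j, ∃ h : i ≤ j, f i j h x = f i j h y) →
      (∀ i, Q1 (Gs i)) → Q1 G) ∧
    (∀ (ι : Type v) (M : ι → Type v) [∀ i, Group (M i)] (_ : Monoid.CoprodI M ≃* G),
      (∀ i, Q1 (M i)) → Q1 G) ∧
    (∀ (G₁ H : Type v) [Group G₁] [Group H] (_ : G₁ × H ≃* G), Q1 G₁ → AllHeight H →
      (∀ h : H, IsOfFinOrder h → h = 1) → Q1 G) := by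
  refine ⟨?_, ?_, ?_, ?_, ?_, ?_, ?_, ?_, ?_, ?_, ?_⟩
  · exact fun h => h.van
  · exact fun h hf => h.Q1 hf
  · exact fun h => AllHeight.of_residual h
  · intro H hH h
    exact AllHeight.of_finiteIndex H h
  · intro ι M _ Φ h
    exact AllHeight.of_mulEquiv Φ (allHeight_coprodI h)
  · intro X _ _ 𝓑 δ μ σ κ R₀ x₀ hC
    exact ⟨hC.allHeight, hC.finTor⟩
  · intro hab
    have : (⊤ : Subgroup G).FiniteIndex := inferInstance
    exact allHeight_of_virtually_abelian ⊤ (fun a _ b _ => hab a b)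
  · intro X _ _ hgeo hCN
    exact CN_members hgeo hCN
  · intro ι _ _ _ Gs _ f φ hfun hcomp hsurj hinj hQ
    exact Q1_of_directed_colimit f φ hfun hcomp hsurj hinj hQ
  · intro ι M _ Φ hQ
    exact Q1_of_mulEquiv Φ (Q1_coprodI_all hQ)
  · intro G₁ H _ _ Φ hG hH htf
    exact Q1_of_mulEquiv Φ (Q1_prod hG hH htf)

end Vale.Agent.Results.P184.Z5_Classes
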