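import Vale.Agent.P184.Walls
import Vale.Agent.P184.Tree

namespace Vale.Agent.Results.P184.ZTreeWall

open Vale.Agent.P184
open scoped Pointwise

universe u v

theorem result {G : Type u} [Group G] (q : ℕ) (e : Fin q → Fin q → G → ℂ) (he : IsIdem e) (g : G) :
    (∀ (X : Type v) [PseudoMetricSpace X] [MulAction G X] (x₀ : X),
      (∀ (a : G) (x y : X), dist (a • x) (a • y) = dist x y) →
      (∀ x y z w : X, dist x y + dist z w ≤ max (dist x z + dist y w) (dist x w + dist y z)) →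
      dist x₀ (g • x₀) < dist x₀ (g ^ 2 • x₀) →
      hs e (ConjClasses.mk g) = 0) ∧
    (∀ (X : Type v) [MulAction G X] (W : Set (Set X)) (k : ℕ) (h₀ : Set X),
      (∀ (a : G), ∀ h ∈ W, a • h ∈ W) →
      (∀ p p' : X, {h ∈ W | p ∈ h ∧ p' ∉ h}.Finite) →
      h₀ ∈ W → g ^ k • h₀ ⊂ h₀ →
      hs e (ConjClasses.mk g) = 0) := by
  refine ⟨?_, ?_⟩
  · intro X _ _ x₀ hiso h4 hhyp
    exact tree_criterion he hiso h4 g x₀ hhyp
  · intro X _ W k h₀ hinv hfin hh₀ hsk
    exact wall_criterion he W hinv hfin g k h₀ hh₀ hsk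

end Vale.Agent.Results.P184.ZTreeWall
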